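import Mathlib

namespace Vale.Agent.Results.P061.ConstantAtLeastFour

open Finset

/-- A finite loopless multigraph: `E` is the type of edge copies and `ends e` is the unordered
pair of endpoints of the copy `e`; parallel copies are allowed, loops are not. -/
structure Multigraph (V E : Type) where
  ends : E → Sym2 V
  loopless : ∀ e, ¬ (ends e).IsDiag

variable {V E : Type}

/-- The edge copy `e` has exactly one endpoint in `S`. -/
def Multigraph.Crosses (G : Multigraph V E) (S : Finset V) (e : E) : Prop :=
  ∃ u v, G.ends e = s(u, v) ∧ u ∈ S ∧ v ∉ S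

open Classical in
/-- The number of edge copies of `F` with exactly one endpoint in `S`. -/
noncomputable def Multigraph.cutCard (G : Multigraph V E) (F : Finset E) (S : Finset V) : ℕ :=
  (F.filter (fun e => G.Crosses S e)).card

/-- `k`-edge-connectivity: every nonempty proper vertex set is left by at least `k` copies. -/
def Multigraph.EdgeConnected [Fintype V] [Fintype E] (G : Multigraph V E) (k : ℕ) : Prop :=
  ∀ S : Finset V, S.Nonempty → S ≠ univ → k ≤ G.cutCard univ S

/-- `T` is a spanning tree: `|V| - 1` edge copies whose union is a connected graph on `V`. -/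
def Multigraph.IsSpanningTree [Fintype V] (G : Multigraph V E) (T : Finset E) : Prop :=
  T.card + 1 = Fintype.card V ∧ (SimpleGraph.fromEdgeSet (G.ends '' (T : Set E))).Connected

/-- `T` is `a`-thin: it contains at most an `a`-fraction of every cut. -/
def Multigraph.Thin [Fintype V] [Fintype E] (G : Multigraph V E) (T : Finset E) (a : ℝ) : Prop :=
  ∀ S : Finset V, S.Nonempty → S ≠ univ → (G.cutCard T S : ℝ) ≤ a * (G.cutCard univ S : ℝ)

/-- The strong thin tree conjecture with the constant `C`. -/
def StrongThinTree (C : ℝ) : Prop :=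
  ∀ k : ℕ, 1 ≤ k → ∀ (V E : Type) [Fintype V] [Fintype E] (G : Multigraph V E),
    2 ≤ Fintype.card V → G.EdgeConnected k →
      ∃ T : Finset E, G.IsSpanningTree T ∧ G.Thin T (C / k)

/-- The complete graph on `Fin n` as a multigraph. -/
def complete (n : ℕ) : Multigraph (Fin n) {e : Sym2 (Fin n) // ¬ e.IsDiag} where
  ends := Subtype.val
  loopless := fun e => e.2

lemma complete_cutCard (n : ℕ) (S : Finset (Fin n)) :
    (complete n).cutCard univ S = S.card * (n - S.card) := by
  classical
  have h1 : (S ×ˢ Sᶜ).card = S.card * (n - S.card) := by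
    rw [card_product, card_compl, Fintype.card_fin]
  rw [← h1]
  unfold Multigraph.cutCard
  symm
  refine Finset.card_bij
    (fun p hp => (⟨s(p.1, p.2), ?_⟩ : {e : Sym2 (Fin n) // ¬ e.IsDiag})) ?_ ?_ ?_
  · simp only [mem_product, mem_compl] at hp
    simp only [Sym2.mk_isDiag_iff]
    intro h
    exact hp.2 (h ▸ hp.1)
  · intro p hp
    simp only [mem_product, mem_compl] at hp
    simp only [mem_filter, mem_univ, true_and]
    exact ⟨p.1, p.2, rfl, hp.1, hp.2⟩
  · intro p hp q hq h
    simp only [mem_product, mem_compl] at hp hq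
    simp only [Subtype.mk.injEq, Sym2.eq_iff] at h
    rcases h with h | h
    · exact Prod.ext h.1 h.2
    · exact absurd (h.1 ▸ hp.1) hq.2
  · intro e he
    simp only [mem_filter, mem_univ, true_and] at he
    obtain ⟨u, v, huv, hu, hv⟩ := he
    refine ⟨(u, v), ?_, ?_⟩
    · simp [hu, hv]
    · apply Subtype.ext
      exact huv.symm

theorem result : ∀ C : ℝ, StrongThinTree C → 4 ≤ C := by
  classical
  intro C hC
  by_contra hlt
  rw [not_le] at hlt
  -- choose n
  obtain ⟨m, hm⟩ := exists_nat_gt (8 / (4 - C))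
  set n : ℕ := m + 2 with hn
  have hpos : 0 < 4 - C := by linarith
  have hnbig : 8 < (4 - C) * (n : ℝ) := by
    have : 8 / (4 - C) < (n : ℝ) := by
      have : (m : ℝ) ≤ (n : ℝ) := by rw [hn]; push_cast; linarith
      linarith
    rw [div_lt_iff₀ hpos] at this
    linarith
  have hn2 : 2 ≤ n := by omega
  have hconn : (complete n).EdgeConnected (n - 1) := by
    intro S hS hS'
    rw [complete_cutCard]
    have h1 : 1 ≤ S.card := hS.card_pos
    have h2 : S.card < n := by
      have := Finset.card_lt_card (Finset.ssubset_univ_iff.mpr hS')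
      simpa using this
    obtain ⟨a, ha⟩ : ∃ a, S.card = a + 1 := ⟨S.card - 1, by omega⟩
    obtain ⟨b, hb⟩ : ∃ b, n = S.card + (b + 1) := ⟨n - S.card - 1, by omega⟩
    have : n - S.card = b + 1 := by omega
    rw [this, ha]
    have : n - 1 = a + b + 1 := by omega
    rw [this]
    nlinarith
  obtain ⟨T, ⟨hTcard, hTconn⟩, hthin⟩ :=
    hC (n - 1) (by omega) (Fin n) _ (complete n) (by simpa using hn2) hconn
  rw [Fintype.card_fin] at hTcard
  set H := SimpleGraph.fromEdgeSet ((complete n).ends '' (T : Set _)) with hH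
  have hedge : H.edgeSet = (complete n).ends '' (T : Set _) := by
    rw [hH, SimpleGraph.edgeSet_fromEdgeSet]
    ext e
    simp only [Set.mem_sdiff, Set.mem_image, and_iff_left_iff_imp]
    rintro ⟨x, _, rfl⟩
    exact x.2
  have hcard : Nat.card H.edgeSet = T.card := by
    have hinj : Function.Injective (complete n).ends := Subtype.val_injective
    rw [hedge, Nat.card_coe_set_eq, Set.ncard_image_of_injective _ hinj,
      Set.ncard_coe_finset]
  have htree : H.IsTree := by
    rw [SimpleGraph.isTree_iff_connected_and_card]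
    refine ⟨hTconn, ?_⟩
    rw [hcard, hTcard]
    simp
  obtain ⟨c⟩ := htree.colorable_two
  set S : Finset (Fin n) := univ.filter (fun v => c v = 0) with hS
  have hcross : ∀ e ∈ T, (complete n).Crosses S e := by
    intro e he
    induction' h : e.1 using Sym2.ind with u v
    have hne : u ≠ v := by
      intro huv
      apply e.2
      rw [h, huv]
      simp
    have hadj : H.Adj u v := by
      rw [hH, SimpleGraph.fromEdgeSet_adj]
      exact ⟨⟨e, he, h⟩, hne⟩
    have hc := c.valid hadj
    by_cases hu : c u = 0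
    · refine ⟨u, v, h, by simp [hS, hu], ?_⟩
      simp only [hS, mem_filter, mem_univ, true_and]
      intro hv
      exact hc (hu.trans hv.symm)
    · refine ⟨v, u, by rw [Sym2.eq_swap]; exact h, ?_, by simp [hS, hu]⟩
      simp only [hS, mem_filter, mem_univ, true_and]
      have h1 : c u = 1 := by omega
      have : c v ≠ 1 := fun hv => hc (h1.trans hv.symm)
      omega
  have hcutT : (complete n).cutCard T S = T.card := by
    unfold Multigraph.cutCard
    rw [Finset.filter_true_of_mem hcross]
  have hTne : T.Nonempty := by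
    rw [← Finset.card_pos]; omega
  obtain ⟨e0, he0⟩ := hTne
  obtain ⟨u0, v0, _, hu0, hv0⟩ := hcross e0 he0
  have hSne : S.Nonempty := ⟨u0, hu0⟩
  have hSuniv : S ≠ univ := fun h => hv0 (h ▸ mem_univ v0)
  have key := hthin S hSne hSuniv
  rw [hcutT, complete_cutCard] at key
  have hTn : (T.card : ℝ) = (n : ℝ) - 1 := by
    have : (T.card : ℝ) + 1 = (n : ℝ) := by exact_mod_cast hTcard
    linarith
  have hsle : S.card ≤ n := by simpa using Finset.card_le_univ S
  have hn1 : ((n - 1 : ℕ) : ℝ) = (n : ℝ) - 1 := by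
    rw [Nat.cast_sub (by omega)]; simp
  rw [hTn, hn1] at key
  push_cast [Nat.cast_sub hsle] at key
  have hnR : (2 : ℝ) ≤ (n : ℝ) := by exact_mod_cast hn2
  have hn1pos : (0 : ℝ) < (n : ℝ) - 1 := by linarith
  set s : ℝ := (S.card : ℝ) with hs
  have hm4 : 4 * (s * ((n : ℝ) - s)) ≤ (n : ℝ) ^ 2 := by nlinarith [sq_nonneg ((n : ℝ) - 2 * s)]
  have key2 : ((n : ℝ) - 1) ^ 2 ≤ C * (s * ((n : ℝ) - s)) := by
    have := mul_le_mul_of_nonneg_right key hn1pos.le
    have e1 : C / ((n : ℝ) - 1) * (s * ((n : ℝ) - s)) * ((n : ℝ) - 1) = C * (s * ((n : ℝ) - s)) := by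
      field_simp
    rw [e1] at this
    nlinarith
  have hmpos : 0 ≤ s * ((n : ℝ) - s) := by
    apply mul_nonneg
    · exact Nat.cast_nonneg _
    · have : s ≤ (n : ℝ) := by rw [hs]; exact_mod_cast hsle
      linarith
  have hCpos : 0 < C := by
    by_contra hneg
    rw [not_lt] at hneg
    have : C * (s * ((n : ℝ) - s)) ≤ 0 := mul_nonpos_of_nonpos_of_nonneg hneg hmpos
    nlinarith
  have key3 : 4 * ((n : ℝ) - 1) ^ 2 ≤ C * (n : ℝ) ^ 2 := by nlinarith
  nlinarith

end Vale.Agent.Results.P061.ConstantAtLeastFour
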